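import Vale.Agent.P075.Final

namespace Vale.Agent.Results.P075.DyadicTriangular

open Vale.Agent.P075

theorem result : ∃ C : ℝ, ∀ (S : Finset ℤ) (ε : ℤ → ℝ) (F0 F1 F2 : ℝ × ℝ → ℝ),
    (∀ k ∈ S, |ε k| ≤ 1) → Nice F0 → Nice F1 → Nice F2 →
    (∀ k : ℤ, (Function.support fun n : Adm => locForm F0 F1 F2 k n.1).Finite) ∧
      |dyadForm S ε F0 F1 F2| ≤ C * (norm3 F0 * norm3 F1 * norm3 F2) :=
  ⟨144, fun S ε _ F1 F2 hε h0 h1 h2 => ⟨main_fin h0 F1 F2, main h0 h1 h2 S ε hε⟩⟩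

end Vale.Agent.Results.P075.DyadicTriangular
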